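import Vale.Agent.P207.N4.Dim
import Vale.Agent.P207.N4.Spec

/-!
# Topology of the leaves (helper824, P2-N)

Closed discs, the inverse charts, second countability of `B`, the proper quotient map
`X → {(ξ, η, t) | ξ ≠ η}`, the function `D`.
-/

open Set Filter Topology Metric MeasureTheory
open scoped ContDiff

noncomputable section

namespace Vale.Agent.P207.N4.H824

open Vale.Agent.P207.N3 Vale.Agent.P207.N3.H824

variable [Dim]

variable {Γ X B : Type} [Group Γ] [MetricSpace X] [ProperSpace X] [MulAction Γ X]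
  [IsIsometricSMul Γ X] [TopologicalSpace B] [CompactSpace B] [T2Space B] [MulAction Γ B]
  [ContinuousConstSMul Γ B]

variable (L : Leaf Γ X B)

theorem ep_cont : Continuous L.ep := by
  have : L.ep = fun x => L.em (L.flip x) := funext L.ep_flip
  rw [this]
  exact L.em_cont.comp L.flip_cont

theorem ep_φ (t : ℝ) (x : X) : L.ep (L.φ t x) = L.ep x := by
  rw [L.ep_flip, L.ep_flip, L.flip_φ, L.em_φ]

theorem ep_rot (a : O2) (x : X) : L.ep (L.rot a x) = L.ep x := by
  rw [L.ep_flip, L.ep_flip, L.flip_rot, L.em_rot]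

theorem ep_smul (g : Γ) (x : X) : L.ep (g • x) = g • L.ep x := by
  rw [L.ep_flip, L.ep_flip, L.flip_smul, L.em_smul]

theorem lp_φ (t : ℝ) (x : X) : L.lp (L.φ t x) = L.lp x - t := by
  unfold Leaf.lp
  rw [L.flip_φ, L.lv_φ]
  ring

theorem lp_rot (a : O2) (x : X) : L.lp (L.rot a x) = L.lp x := by
  unfold Leaf.lp
  rw [L.flip_rot, L.lv_rot]

theorem lp_cont : Continuous L.lp := L.lv_cont.comp L.flip_cont

theorem φ_cont' (t : ℝ) : Continuous (L.φ t) :=
  L.φ_cont.comp (f := fun x => (t, x)) (by fun_prop)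

theorem e_cont' {Z : Type} [TopologicalSpace Z] {f : Z → X} {g : Z → E2} (hf : Continuous f)
    (hg : Continuous g) (h3 : ∀ z, g z ∈ closedBall (0 : E2) 3) :
    Continuous fun z => L.e (f z) (g z) :=
  L.e_cont.comp_continuous (f := fun z : Z => (f z, g z)) (hf.prodMk hg)
    (fun z => ⟨mem_univ _, h3 z⟩)

/-- the graph of a closed part of the discs is closed -/
theorem closed_disc {S : Set E2} (hS : IsClosed S) (h3 : S ⊆ closedBall 0 3) :
    IsClosed {p : X × B | p.2 ∈ L.e p.1 '' S} := by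
  have : CompactSpace S := isCompact_iff_compactSpace.1
    ((isCompact_closedBall (0 : E2) 3).of_isClosed_subset hS h3)
  have hc : Continuous fun q : (X × B) × S => L.e q.1.1 q.2.1 :=
    e_cont' L (by fun_prop) (by fun_prop) (fun q => h3 q.2.2)
  have h : IsClosed {q : (X × B) × S | L.e q.1.1 q.2.1 = q.1.2} := isClosed_eq hc (by fun_prop)
  have h2 := isClosedMap_fst_of_compactSpace _ h
  have h4 : (Prod.fst '' {q : (X × B) × S | L.e q.1.1 q.2.1 = q.1.2})
      = {p : X × B | p.2 ∈ L.e p.1 '' S} := by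
    ext p
    constructor
    · rintro ⟨q, hq, rfl⟩
      exact ⟨q.2.1, q.2.2, hq⟩
    · rintro ⟨u, hu, hp⟩
      exact ⟨(p, ⟨u, hu⟩), hp, rfl⟩
  rwa [h4] at h2

/-- open discs are open -/
theorem open_disc {ρ : ℝ} (hρ : ρ ≤ 3) :
    IsOpen {p : X × B | p.2 ∈ L.e p.1 '' ball 0 ρ} := by
  have h1 : IsClosed {p : X × B | p.2 ∈ L.e p.1 '' (closedBall 0 3 \ ball 0 ρ)} :=
    closed_disc L (isClosed_closedBall.sdiff isOpen_ball) sdiff_subset
  have h2 : {p : X × B | p.2 ∈ L.e p.1 '' ball 0 ρ}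
      = {p : X × B | p.2 ∈ L.e p.1 '' ball 0 3} ∩
        {p : X × B | p.2 ∈ L.e p.1 '' (closedBall 0 3 \ ball 0 ρ)}ᶜ := by
    ext p
    simp only [mem_ofPred_eq, mem_inter_iff, mem_compl_iff]
    constructor
    · rintro ⟨u, hu, hp⟩
      refine ⟨⟨u, ball_subset_ball hρ hu, hp⟩, ?_⟩
      rintro ⟨v, hv, hv'⟩
      have : u = v := L.e_inj p.1 (ball_subset_closedBall (ball_subset_ball hρ hu)) hv.1
        (hp.trans hv'.symm)
      exact hv.2 (this ▸ hu)
    · rintro ⟨⟨u, hu, hp⟩, hn⟩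
      refine ⟨u, ?_, hp⟩
      by_contra hc
      exact hn ⟨u, ⟨ball_subset_closedBall hu, hc⟩, hp⟩
  rw [h2]
  exact L.e_open.inter h1.isOpen_compl

theorem open_disc' (x : X) {ρ : ℝ} (hρ : ρ ≤ 3) : IsOpen (L.e x '' ball 0 ρ) :=
  (open_disc L hρ).preimage (f := fun η : B => (x, η)) (by fun_prop)

/-- the inverse chart -/
def inv (x : X) (η : B) : E2 := Function.invFunOn (L.e x) (closedBall (0 : E2) 3) η

variable {L}

theorem inv_mem {x : X} {η : B} (h : η ∈ L.e x '' closedBall 0 3) :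
    inv L x η ∈ closedBall (0 : E2) 3 := Function.invFunOn_mem h

theorem e_inv {x : X} {η : B} (h : η ∈ L.e x '' closedBall 0 3) :
    L.e x (inv L x η) = η := Function.invFunOn_eq h

theorem inv_e {x : X} {u : E2} (h : u ∈ closedBall (0 : E2) 3) :
    inv L x (L.e x u) = u := (L.e_inj x).leftInvOn_invFunOn h

theorem inv_mem' {x : X} {η : B} {S : Set E2} (hS : S ⊆ closedBall 0 3)
    (h : η ∈ L.e x '' S) : inv L x η ∈ S := by
  obtain ⟨u, hu, rfl⟩ := h
  rwa [inv_e (hS hu)]

variable (L)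

theorem inv_cont :
    ContinuousOn (fun p : X × B => inv L p.1 p.2) {p | p.2 ∈ L.e p.1 '' closedBall 0 3} := by
  rw [continuousOn_iff_isClosed]
  intro S hS
  refine ⟨_, closed_disc L (hS.inter isClosed_closedBall) inter_subset_right, ?_⟩
  ext p
  simp only [mem_inter_iff, mem_preimage, mem_ofPred_eq]
  constructor
  · rintro ⟨h1, h2⟩
    exact ⟨⟨inv L p.1 p.2, ⟨h1, inv_mem h2⟩, e_inv h2⟩, h2⟩
  · rintro ⟨h1, h2⟩
    exact ⟨(inv_mem' inter_subset_right h1).1, h2⟩

theorem exists_ep (p : B) : ∃ x, L.ep x = p := by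
  obtain ⟨x⟩ := L.nonempty
  by_cases h : L.em x = p
  · obtain ⟨y, hy⟩ := L.exists_frame (L.ep x) p (by rw [← h]; exact (L.em_ne_ep x).symm) 0
    exact ⟨y, hy.2.1⟩
  · obtain ⟨y, hy⟩ := L.exists_frame (L.em x) p h 0
    exact ⟨y, hy.2.1⟩

theorem mem_disc (x : X) {ρ : ℝ} (hρ : 0 < ρ) : L.ep x ∈ L.e x '' ball 0 ρ :=
  ⟨0, mem_ball_self hρ, L.e_zero x⟩

include L in
theorem secondCountable : SecondCountableTopology B := by
  have hV : ∀ x : X, SecondCountableTopology (L.e x '' closedBall (0 : E2) 3) := by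
    intro x
    have : CompactSpace (closedBall (0 : E2) 3) :=
      isCompact_iff_compactSpace.1 (isCompact_closedBall _ _)
    have h1 : IsClosedEmbedding fun u : closedBall (0 : E2) 3 => L.e x u.1 := by
      apply Continuous.isClosedEmbedding
      · exact e_cont' L continuous_const continuous_subtype_val (fun u => u.2)
      · intro u v huv
        exact Subtype.ext (L.e_inj x u.2 v.2 huv)
    have h2 := h1.isEmbedding.toHomeomorph.symm.secondCountableTopology
    have h3 : range (fun u : closedBall (0 : E2) 3 => L.e x u.1) = L.e x '' closedBall (0 : E2) 3 := by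
      ext y
      simp
    rwa [h3] at h2
  have hV' : ∀ x : X, SecondCountableTopology (L.e x '' ball (0 : E2) 3) := by
    intro x
    have := hV x
    exact (Topology.IsEmbedding.inclusion
      (image_mono ball_subset_closedBall)).secondCountableTopology
  obtain ⟨t, ht⟩ := isCompact_univ.elim_finite_subcover (fun x : X => L.e x '' ball (0 : E2) 3)
    (fun x => open_disc' L x le_rfl) (fun p _ => by
      obtain ⟨x, hx⟩ := exists_ep L p
      rw [← hx]
      exact mem_iUnion.2 ⟨x, mem_disc L x (by norm_num)⟩)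
  have : ∀ i : t, SecondCountableTopology (L.e i.1 '' ball (0 : E2) 3) := fun i => hV' i.1
  refine TopologicalSpace.secondCountableTopology_of_countable_cover
    (U := fun i : t => L.e i.1 '' ball (0 : E2) 3) (fun i => open_disc' L i.1 le_rfl) ?_
  rw [eq_univ_iff_forall]
  intro p
  have := ht (mem_univ p)
  simp only [mem_iUnion] at this ⊢
  obtain ⟨x, hx, hp⟩ := this
  exact ⟨⟨x, hx⟩, hp⟩

include L in
theorem metrizable : TopologicalSpace.MetrizableSpace B := by
  have := secondCountable L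
  exact TopologicalSpace.metrizableSpace_of_t3_secondCountable B

/-! ### The quotient by `rot` -/

variable (B) in
/-- the space of triples -/
abbrev Tri : Type := {p : (B × B) × ℝ // p.1.1 ≠ p.1.2}

/-- the projection -/
def pr (x : X) : Tri B := ⟨((L.em x, L.ep x), L.lv x), L.em_ne_ep x⟩

theorem pr_cont : Continuous (pr L) :=
  Continuous.subtype_mk ((L.em_cont.prodMk (ep_cont L)).prodMk L.lv_cont) _

omit [CompactSpace B] in
theorem isOpen_ne : IsOpen {p : (B × B) × ℝ | p.1.1 ≠ p.1.2} :=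
  isOpen_ne_fun (by fun_prop) (by fun_prop)

theorem pr_proper : IsProperMap (pr L) := by
  have : LocallyCompactSpace (Tri B) := (isOpen_ne (B := B)).locallyCompactSpace
  rw [isProperMap_iff_isCompact_preimage]
  refine ⟨pr_cont L, fun K hK => ?_⟩
  have h1 : IsCompact ((fun p : Tri B => p.1.1) '' K) := hK.image (by fun_prop)
  have h2 : IsCompact ((fun p : Tri B => p.1.2) '' K) := hK.image (by fun_prop)
  obtain ⟨c, hc⟩ := h2.isBounded.subset_closedBall 0
  refine (L.hopf_proper _ h1 ?_ c).of_isClosed_subset (hK.isClosed.preimage (pr_cont L)) ?_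
  · rintro _ ⟨p, _, rfl⟩
    exact p.2
  · intro x hx
    refine ⟨⟨pr L x, hx, rfl⟩, ?_⟩
    have := hc ⟨pr L x, hx, rfl⟩
    simpa [pr] using this

theorem pr_surj : Function.Surjective (pr L) := by
  rintro ⟨⟨⟨ξ, η⟩, t⟩, h⟩
  obtain ⟨x, h1, h2, h3⟩ := L.exists_frame ξ η h t
  exact ⟨x, Subtype.ext (by simp [pr, h1, h2, h3])⟩

/-- the chosen frame -/
def fr (p : Tri B) : X := Classical.choose (pr_surj L p)

theorem pr_fr (p : Tri B) : pr L (fr L p) = p := Classical.choose_spec (pr_surj L p)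

theorem em_fr (p : Tri B) : L.em (fr L p) = p.1.1.1 := by
  conv_rhs => rw [← pr_fr L p]
  rfl

theorem ep_fr (p : Tri B) : L.ep (fr L p) = p.1.1.2 := by
  conv_rhs => rw [← pr_fr L p]
  rfl

theorem lv_fr (p : Tri B) : L.lv (fr L p) = p.1.2 := by
  conv_rhs => rw [← pr_fr L p]
  rfl

theorem fr_pr (x : X) : ∃ a, fr L (pr L x) = L.rot a x :=
  L.frame_unique x (fr L (pr L x)) (em_fr L (pr L x)).symm (ep_fr L (pr L x)).symm
    (lv_fr L (pr L x)).symm

theorem prq (Z : Type) [TopologicalSpace Z] :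
    IsQuotientMap (Prod.map (pr L) (id : Z → Z)) :=
  ((pr_proper L).prodMap (Homeomorph.refl Z).isProperMap).isClosedMap.isQuotientMap
    ((pr_cont L).prodMap continuous_id) ((pr_surj L).prodMap Function.surjective_id)

/-- a continuous function which is invariant under `rot` descends -/
theorem descend {Z W : Type} [TopologicalSpace Z] [TopologicalSpace W] {f : X × Z → W}
    (hf : Continuous f) (hr : ∀ a x z, f (L.rot a x, z) = f (x, z)) :
    Continuous fun q : Tri B × Z => f (fr L q.1, q.2) := by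
  rw [(prq L Z).continuous_iff]
  have : (fun q : Tri B × Z => f (fr L q.1, q.2)) ∘ Prod.map (pr L) (id : Z → Z) = f := by
    funext q
    obtain ⟨a, ha⟩ := fr_pr L q.1
    simp only [Function.comp_apply, Prod.map_fst, Prod.map_snd, id_eq]
    rw [ha, hr]
  rw [this]
  exact hf

/-- the frame with given end points and level -/
def frm (ξ η : B) (t : ℝ) : X :=
  open Classical in
  if h : ξ ≠ η then fr L ⟨((ξ, η), t), h⟩ else Classical.choice L.nonempty

variable {L}

theorem em_frm {ξ η : B} (h : ξ ≠ η) (t : ℝ) : L.em (frm L ξ η t) = ξ := by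
  rw [frm, dif_pos h, em_fr]

theorem ep_frm {ξ η : B} (h : ξ ≠ η) (t : ℝ) : L.ep (frm L ξ η t) = η := by
  rw [frm, dif_pos h, ep_fr]

theorem lv_frm {ξ η : B} (h : ξ ≠ η) (t : ℝ) : L.lv (frm L ξ η t) = t := by
  rw [frm, dif_pos h, lv_fr]

variable (L)

theorem frm_self (x : X) : ∃ a, frm L (L.em x) (L.ep x) (L.lv x) = L.rot a x := by
  rw [frm, dif_pos (L.em_ne_ep x)]
  exact fr_pr L x

theorem frm_eq {x y : X} (h1 : L.em x = L.em y) (h2 : L.ep x = L.ep y) (h3 : L.lv x = L.lv y) :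
    ∃ a, y = L.rot a x := L.frame_unique x y h1 h2 h3

/-- descent, for functions on an open set -/
theorem descend_on {Z W : Type} [TopologicalSpace Z] [TopologicalSpace W] {f : X × Z → W}
    (hf : Continuous f) (hr : ∀ a x z, f (L.rot a x, z) = f (x, z)) :
    ContinuousOn (fun q : ((B × B) × ℝ) × Z => f (frm L q.1.1.1 q.1.1.2 q.1.2, q.2))
      {q | q.1.1.1 ≠ q.1.1.2} := by
  have h := descend L hf hr
  rw [continuousOn_iff_continuous_domRestrict]
  have h2 : Continuous fun q : {q : ((B × B) × ℝ) × Z | q.1.1.1 ≠ q.1.1.2} =>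
      ((⟨q.1.1, q.2⟩ : Tri B), q.1.2) := by
    refine Continuous.prodMk (Continuous.subtype_mk (by fun_prop) _) (by fun_prop)
  have h3 := h.comp h2
  refine h3.congr fun q => ?_
  have hq : q.1.1.1.1 ≠ q.1.1.1.2 := q.2
  simp only [Function.comp_apply, domRestrict_apply]
  rw [frm, dif_pos hq]

/-! ### The function `D` -/

/-- `D ξ η = -2 (ξ|η)` -/
def D (ξ η : B) : ℝ := L.lv (frm L ξ η 0) + L.lp (frm L ξ η 0)

theorem D_eq (x : X) : D L (L.em x) (L.ep x) = L.lv x + L.lp x := by
  have h0 := L.em_ne_ep x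
  obtain ⟨a, ha⟩ := frm_eq L (x := L.φ (-L.lv x) x) (y := frm L (L.em x) (L.ep x) 0)
    (by rw [em_frm h0, L.em_φ]) (by rw [ep_frm h0, ep_φ])
    (by rw [lv_frm h0, L.lv_φ]; ring)
  unfold D
  rw [ha, L.lv_rot, lp_rot, L.lv_φ, lp_φ]
  ring

theorem D_frm {ξ η : B} (h : ξ ≠ η) (t : ℝ) : D L ξ η = t + L.lp (frm L ξ η t) := by
  have := D_eq L (frm L ξ η t)
  rwa [em_frm h, ep_frm h, lv_frm h] at this

theorem D_cont : ContinuousOn (fun p : B × B => D L p.1 p.2) {p | p.1 ≠ p.2} := by
  have h := descend_on L (Z := Unit) (f := fun p : X × Unit => L.lv p.1 + L.lp p.1)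
    (by
      have := L.lv_cont
      have := lp_cont L
      fun_prop) (fun a x _ => by rw [L.lv_rot, lp_rot])
  have h2 := h.comp (f := fun p : B × B => (((p.1, p.2), (0 : ℝ)), ())) (s := {p | p.1 ≠ p.2})
    (by fun_prop) (fun p hp => hp)
  exact h2

end Vale.Agent.P207.N4.H824
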