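import Vale.Agent.P207.N4.Dim
import Vale.Agent.P207.N4.H824.Nu

/-!
# The structure `Area` from the densities (helper824, P2-N)
-/

open Set Filter Topology Metric MeasureTheory
open scoped ContDiff ENNReal

noncomputable section

namespace Vale.Agent.P207.N4.H824

open Vale.Agent.P207.N3 Vale.Agent.P207.N3.H824

variable [Dim]

variable {Γ X B : Type} [Group Γ] [MetricSpace X] [ProperSpace X] [MulAction Γ X]
  [IsIsometricSMul Γ X] [TopologicalSpace B] [CompactSpace B] [T2Space B] [MulAction Γ B]
  [ContinuousConstSMul Γ B] [MeasurableSpace B] [BorelSpace B]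

variable {L : Leaf Γ X B}

/-- local equality of measures -/
theorem ext_local {B : Type*} [TopologicalSpace B] [SecondCountableTopology B]
    [MeasurableSpace B] [OpensMeasurableSpace B] {μ μ' : Measure B} {V : Set B}
    (h : ∀ p ∈ V, ∃ W, IsOpen W ∧ p ∈ W ∧ μ.restrict W = μ'.restrict W) :
    μ.restrict V = μ'.restrict V := by
  choose! W hW1 hW2 hW3 using h
  obtain ⟨T, hT, hU⟩ := TopologicalSpace.isOpen_iUnion_countable (fun p : V => W p)
    (fun p => hW1 p p.2)
  have hTc : Countable T := hT.to_subtype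
  have h2 : (⋃ p : V, W p) = ⋃ p : T, W p.1 := by
    rw [← hU]
    ext q
    simp
  have h3 : V ⊆ ⋃ p : V, W p := fun p hp => mem_iUnion.2 ⟨⟨p, hp⟩, hW2 p hp⟩
  have h4 : μ.restrict (⋃ p : V, W p) = μ'.restrict (⋃ p : V, W p) := by
    rw [h2, Measure.restrict_iUnion_congr]
    exact fun p => hW3 p.1 p.1.2
  have hm : MeasurableSet (⋃ p : V, W p) := (isOpen_iUnion fun p : V => hW1 p.1 p.2).measurableSet
  rw [← Measure.restrict_restrict_of_subset h3, h4, Measure.restrict_restrict_of_subset h3]

theorem sig_point (d : Dens0 L) (x : X) : sig d (L.em x) {L.ep x} = 0 := by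
  have h1 : (sig d (L.em x)).restrict (L.e x '' ball 0 3) {L.ep x} = 0 := by
    rw [sig_restrict d rfl]
    have h2 : ({L.ep x} : Set B) = L.e x '' {0} := by rw [image_singleton, L.e_zero]
    rw [h2, ma_image d x (measurableSet_singleton _) (by
      rw [singleton_subset_iff]
      exact mem_ball_self (by norm_num))]
    rw [Measure.restrict_singleton]
    simp
  rwa [Measure.restrict_apply (measurableSet_singleton _), inter_eq_self_of_subset_left (by
    rw [singleton_subset_iff]
    exact mem_disc L x (by norm_num))] at h1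

omit [MeasurableSpace B] [BorelSpace B] in
theorem em_notMem (x : X) {ρ : ℝ} (hρ : ρ ≤ 3) : L.em x ∉ L.e x '' ball 0 ρ := by
  rintro ⟨u, hu, he⟩
  exact L.e_ne x u (ball_subset_closedBall (ball_subset_ball hρ hu)) he

theorem mu_lt_top (d : Dens0 L) (x : X) : mu d (L.em x) (L.e x '' ball 0 2) < ⊤ := by
  have hV : MeasurableSet (L.e x '' ball 0 2) := (open_disc' L x (by norm_num)).measurableSet
  have h1 : mu d (L.em x) (L.e x '' ball 0 2)
      = ∫⁻ η, (L.e x '' ball 0 2).indicator (eD d (L.em x)) η ∂(sig d (L.em x)) := by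
    rw [mu, withDensity_apply _ hV, lintegral_indicator hV]
  rw [h1, sig_lintegral d ((eD_meas d _).indicator hV) (fun η hη => mem_of_indicator_ne_zero hη)]
  have hc : ContinuousOn (fun u => Real.exp (-d.h * L.lv x) * st d x u
      * Real.exp (d.h * D L (L.em x) (et L x u))) (closedBall (0 : E2) 2) := by
    have c1 : ContinuousOn (fun u => D L (L.em x) (et L x u)) (closedBall (0 : E2) 2) := by
      refine (D_contOn L (L.em x)).comp
        ((et_cont L).comp (f := fun u : E2 => (x, u)) (by fun_prop)).continuousOn ?_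
      intro u hu hc
      rw [et_eq x hu] at hc
      exact L.e_ne x u (closedBall_subset_closedBall (by norm_num) hu) hc
    have c2 := cst d x
    fun_prop
  have hi := (hc.integrableOn_compact (isCompact_closedBall _ _) (μ := volume)).lintegral_lt_top
  refine lt_of_le_of_lt ?_ hi
  refine lintegral_mono fun u => ?_
  rw [ENNReal.ofReal_mul (mul_nonneg (Real.exp_pos _).le (st_pos d x u).le)]
  exact mul_le_mul_right (indicator_le_self _ _ _) _

theorem exists_nu0 (d : Dens0 L) : ∃ ν : Measure B, ∀ x : X,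
    ν.restrict (L.e x '' ball 0 2) = (mu d (L.em x)).restrict (L.e x '' ball 0 2) := by
  have := secondCountable L
  obtain ⟨ν, -, h, -⟩ := exists_glue (fun x : X => L.e x '' ball 0 2)
    (fun x => open_disc' L x (by norm_num)) (fun x => mu d (L.em x)) (fun x => inferInstance)
    (fun x y => by
      have hV : IsOpen (L.e x '' ball 0 2 ∩ L.e y '' ball 0 2) :=
        (open_disc' L x (by norm_num)).inter (open_disc' L y (by norm_num))
      refine ext_open (fun O hO hs => mu_open d hO ?_ ?_) (fun p hp => ?_)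
      · exact fun hc => em_notMem y (by norm_num) (hs hc).2
      · exact fun hc => em_notMem x (by norm_num) (hs hc).1
      · exact ⟨_, hV, hp, le_rfl,
          (measure_mono inter_subset_left).trans_lt (mu_lt_top d x)⟩)
  exact ⟨ν, h⟩

theorem exists_nu (d : Dens0 L) : ∃ ν : Measure B, IsFiniteMeasure ν ∧ ν ≠ 0 ∧
    (∀ ξ, ν {ξ} = 0) ∧ ∀ (x : X) (A : Set E2), MeasurableSet A → A ⊆ ball 0 3 →
      ∫⁻ u in A, ENNReal.ofReal (Real.exp (-d.h * L.lv x) * d.s x u)
        = ∫⁻ η in L.e x '' A, ENNReal.ofReal (Real.exp (-d.h * D L (L.em x) η)) ∂ν := by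
  have hsc := secondCountable L
  obtain ⟨ν, hν⟩ := exists_nu0 d
  have hν3 : ∀ x : X, ν.restrict (L.e x '' ball 0 3)
      = (mu d (L.em x)).restrict (L.e x '' ball 0 3) := by
    intro x
    refine ext_local fun p hp => ?_
    have hne : L.em x ≠ p := fun hc => em_notMem x le_rfl (hc ▸ hp)
    obtain ⟨y, hy1, hy2, -⟩ := L.exists_frame (L.em x) p hne 0
    refine ⟨L.e y '' ball 0 2, open_disc' L y (by norm_num), ?_, ?_⟩
    · rw [← hy2]
      exact mem_disc L y (by norm_num)
    · rw [hν y, hy1]
  have hchart : ∀ (x : X) (A : Set E2), MeasurableSet A → A ⊆ ball 0 3 →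
      ∫⁻ u in A, ENNReal.ofReal (Real.exp (-d.h * L.lv x) * d.s x u)
        = ∫⁻ η in L.e x '' A, ENNReal.ofReal (Real.exp (-d.h * D L (L.em x) η)) ∂ν := by
    intro x A hA h3
    have hAm : MeasurableSet (L.e x '' A) := meas_image x hA (h3.trans ball_subset_closedBall)
    have hsub : L.e x '' A ⊆ L.e x '' ball 0 3 := image_mono h3
    have h4 : ν.restrict (L.e x '' A) = (mu d (L.em x)).restrict (L.e x '' A) := by
      rw [← Measure.restrict_restrict_of_subset hsub, hν3,
        Measure.restrict_restrict_of_subset hsub]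
    have hg : Measurable fun η => ENNReal.ofReal (Real.exp (-d.h * D L (L.em x) η)) :=
      ((D_meas L (L.em x)).const_mul _).exp.ennreal_ofReal
    rw [h4, ← lintegral_indicator hAm, mu_lintegral d _ (hg.indicator hAm)]
    have h5 : ∀ η, eD d (L.em x) η * (L.e x '' A).indicator
        (fun η => ENNReal.ofReal (Real.exp (-d.h * D L (L.em x) η))) η
        = (L.e x '' A).indicator 1 η := by
      intro η
      by_cases hη : η ∈ L.e x '' A
      · rw [indicator_of_mem hη, indicator_of_mem hη, eD, ← ENNReal.ofReal_mul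
          (Real.exp_pos _).le, ← Real.exp_add]
        simp
      · rw [indicator_of_notMem hη, indicator_of_notMem hη, mul_zero]
    simp only [h5]
    rw [lintegral_indicator_one hAm]
    have h6 : sig d (L.em x) (L.e x '' A) = ma d x (L.e x '' A) := by
      rw [← sig_restrict d (x := x) rfl, Measure.restrict_apply hAm,
        inter_eq_self_of_subset_left hsub]
    rw [h6, ma_image d x hA h3]
    rfl
  refine ⟨ν, ?_, ?_, ?_, hchart⟩
  · obtain ⟨t, ht⟩ := isCompact_univ.elim_finite_subcover (fun x : X => L.e x '' ball (0 : E2) 2)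
      (fun x => open_disc' L x (by norm_num)) (fun p _ => by
        obtain ⟨x, hx⟩ := exists_ep L p
        rw [← hx]
        exact mem_iUnion.2 ⟨x, mem_disc L x (by norm_num)⟩)
    refine ⟨(measure_mono ht).trans_lt ((measure_biUnion_finset_le t _).trans_lt ?_)⟩
    refine ENNReal.sum_lt_top.2 fun x _ => ?_
    have h1 : ν (L.e x '' ball 0 2) = mu d (L.em x) (L.e x '' ball 0 2) :=
      restrict_eq_apply (hν x) le_rfl (open_disc' L x (by norm_num)).measurableSet
    rw [h1]
    exact mu_lt_top d x
  · intro h0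
    obtain ⟨x⟩ := L.nonempty
    have h1 := hchart x (ball 0 3) measurableSet_ball le_rfl
    rw [h0, Measure.restrict_zero, lintegral_zero_measure] at h1
    replace h1 := (lintegral_eq_zero_iff' (wt_ae d x)).1 h1
    have h2 : volume (ball (0 : E2) 3) = 0 := by
      have h3 := (ae_restrict_iff' measurableSet_ball).1 h1
      refine measure_eq_zero_iff_ae_notMem.2 (h3.mono fun u hu hu3 => ?_)
      have h4 : ENNReal.ofReal (Real.exp (-d.h * L.lv x) * d.s x u) = 0 := hu hu3
      rw [ENNReal.ofReal_eq_zero] at h4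
      exact absurd h4 (not_le.2 (mul_pos (Real.exp_pos _) (d.s_pos x u hu3)))
    exact (measure_ball_pos volume (0 : E2) (by norm_num : (0 : ℝ) < 3)).ne' h2
  · intro p
    obtain ⟨x, rfl⟩ := exists_ep L p
    have h1 : ν {L.ep x} = mu d (L.em x) {L.ep x} :=
      restrict_eq_apply (hν x) (by
        rw [singleton_subset_iff]
        exact mem_disc L x (by norm_num)) (measurableSet_singleton _)
    rw [h1]
    exact withDensity_absolutelyContinuous _ _ (sig_point d x)

/-- **P2-N**: the structure `Area` from the densities. -/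
theorem exists_area_of_dens (L : Leaf Γ X B) (h : ℝ) (h_pos : 0 < h) (s : X → E2 → ℝ)
    (s_pos : ∀ x, ∀ u ∈ ball (0 : E2) 3, 0 < s x u)
    (s_smooth : ∀ x, ContDiffOn ℝ ∞ (s x) (ball 0 3))
    (s_cont : ∀ k : ℕ, ContinuousOn (fun p : X × E2 => iteratedFDeriv ℝ k (s p.1) p.2)
      (univ ×ˢ ball 0 3))
    (s_smul : ∀ (g : Γ) x, ∀ u ∈ ball (0 : E2) 3, s (g • x) u = s x u)
    (s_trans : ∀ x y, L.em x = L.em y → ∀ u ∈ L.dm x y,
      s x u = Real.exp (h * (L.lv x - L.lv y)) * |(fderiv ℝ (L.τ x y) u).det|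
        * s y (L.τ x y u)) :
    ∃ A : Area L, A.h = h ∧ A.s = s := by
  have s_cont0 : ContinuousOn (fun p : X × E2 => s p.1 p.2) (univ ×ˢ ball 0 3) := by
    have h1 := (ContinuousMultilinearMap.apply ℝ (fun _ : Fin 0 => E2) ℝ
      (0 : Fin 0 → E2)).continuous.comp_continuousOn (s_cont 0)
    refine h1.congr fun p hp => ?_
    simp
  obtain ⟨ν, h1, h2, h3, h4⟩ := exists_nu (L := L) ⟨h, s, s_pos, s_cont0, s_smul, s_trans⟩
  exact ⟨⟨h, h_pos, s, s_pos, s_smooth, s_cont, s_smul, s_trans, ν, h1, h2, h3, D L, D_eq L,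
    h4⟩, rfl, rfl⟩

end Vale.Agent.P207.N4.H824
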