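import Vale.Agent.P207.N4.Dim
import Vale.Agent.P207.N4.H824.Ker

/-!
# The measures of the leaves (helper824, P2-N)
-/

open Set Filter Topology Metric MeasureTheory
open scoped ContDiff ENNReal

noncomputable section

namespace Vale.Agent.P207.N4.H824

open Vale.Agent.P207.N3 Vale.Agent.P207.N3.H824

variable [Dim]

/-! ### Gluing of measures -/

section Glue

variable {B : Type*} [TopologicalSpace B] [SecondCountableTopology B] [MeasurableSpace B]
  [OpensMeasurableSpace B]

omit [TopologicalSpace B] [SecondCountableTopology B] [OpensMeasurableSpace B] in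
theorem restrict_eq_apply {m m' : Measure B} {V : Set B}
    (h : m.restrict V = m'.restrict V) {S : Set B} (hS : S ⊆ V) (hm : MeasurableSet S) :
    m S = m' S := by
  have h1 : m.restrict V S = m'.restrict V S := by rw [h]
  rwa [Measure.restrict_apply hm, Measure.restrict_apply hm, inter_eq_self_of_subset_left hS] at h1

theorem exists_glue {ι : Type*} (V : ι → Set B) (hV : ∀ i, IsOpen (V i)) (m : ι → Measure B)
    (hs : ∀ i, SFinite (m i))
    (hc : ∀ i j, (m i).restrict (V i ∩ V j) = (m j).restrict (V i ∩ V j)) :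
    ∃ μ : Measure B, SFinite μ ∧ (∀ i, μ.restrict (V i) = (m i).restrict (V i)) ∧
      μ (⋃ i, V i)ᶜ = 0 := by
  obtain ⟨T, hT, hU⟩ := TopologicalSpace.isOpen_iUnion_countable V hV
  rcases T.eq_empty_or_nonempty with rfl | hne
  · have h0 : ∀ i, V i = ∅ := by
      intro i
      have : V i ⊆ ⋃ i, V i := subset_iUnion V i
      rw [← hU] at this
      simpa using this
    exact ⟨0, inferInstance, fun i => by simp [h0 i], by simp⟩
  · obtain ⟨f, rfl⟩ := hT.exists_eq_range hne
    have hU' : ⋃ n, V (f n) = ⋃ i, V i := by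
      rw [← hU, biUnion_range]
    have hAm : ∀ n, MeasurableSet (disjointed (fun n => V (f n)) n) := fun n =>
      MeasurableSet.disjointed (fun n => (hV (f n)).measurableSet) n
    have hAs : ∀ n, disjointed (fun n => V (f n)) n ⊆ V (f n) := fun n => disjointed_subset _ n
    have hAd : Pairwise (Function.onFun Disjoint (disjointed (fun n => V (f n)))) :=
      disjoint_disjointed _
    have hAu : ⋃ n, disjointed (fun n => V (f n)) n = ⋃ i, V i := by
      rw [iUnion_disjointed, hU']
    set A := disjointed (fun n => V (f n)) with hA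
    refine ⟨Measure.sum fun n => (m (f n)).restrict (A n), ?_, fun i => ?_, ?_⟩
    · have : ∀ n, SFinite (m (f n)) := fun n => hs _
      infer_instance
    · ext S hS
      have hVi := (hV i).measurableSet
      rw [Measure.restrict_apply hS, Measure.restrict_apply hS,
        Measure.sum_apply _ (hS.inter hVi)]
      have h1 : ∀ n, (m (f n)).restrict (A n) (S ∩ V i) = m i (S ∩ V i ∩ A n) := by
        intro n
        rw [Measure.restrict_apply (hS.inter hVi)]
        exact restrict_eq_apply (hc (f n) i)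
          (fun x hx => ⟨hAs n hx.2, hx.1.2⟩) ((hS.inter hVi).inter (hAm n))
      simp only [h1]
      rw [← measure_iUnion (fun a b hab => (hAd hab).mono inter_subset_right inter_subset_right)
        (fun n => (hS.inter hVi).inter (hAm n)), ← inter_iUnion, hAu]
      congr 1
      exact inter_eq_self_of_subset_left (inter_subset_right.trans (subset_iUnion V i))
    · have hm : MeasurableSet (⋃ i, V i)ᶜ := (isOpen_iUnion hV).measurableSet.compl
      rw [Measure.sum_apply _ hm, ENNReal.tsum_eq_zero]
      intro n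
      rw [Measure.restrict_apply hm]
      have : (⋃ i, V i)ᶜ ∩ A n = ∅ := by
        rw [eq_empty_iff_forall_notMem]
        rintro x ⟨h1, h2⟩
        exact h1 (mem_iUnion.2 ⟨f n, hAs n h2⟩)
      rw [this, measure_empty]

/-- two measures which agree on the open subsets of an open set -/
theorem ext_open {B : Type*} [TopologicalSpace B] [SecondCountableTopology B]
    [MeasurableSpace B] [BorelSpace B] {μ μ' : Measure B} {V : Set B}
    (h : ∀ O, IsOpen O → O ⊆ V → μ O = μ' O)
    (hf : ∀ p ∈ V, ∃ W, IsOpen W ∧ p ∈ W ∧ W ⊆ V ∧ μ W < ⊤) :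
    μ.restrict V = μ'.restrict V := by
  choose! W hW1 hW2 hW3 hW4 using hf
  have h1 : V = ⋃ p : V, W p := by
    ext p
    simp only [mem_iUnion, Subtype.exists, exists_prop]
    constructor
    · intro hp
      exact ⟨p, hp, hW2 p hp⟩
    · rintro ⟨q, hq, hp⟩
      exact hW3 q hq hp
  obtain ⟨T, hT, hU⟩ := TopologicalSpace.isOpen_iUnion_countable (fun p : V => W p)
    (fun p => hW1 p p.2)
  have h2 : V = ⋃ p : T, W p.1 := by
    conv_lhs => rw [h1, ← hU]
    ext q
    simp
  have hTc : Countable T := hT.to_subtype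
  rw [h2, Measure.restrict_iUnion_congr]
  rintro ⟨⟨p, hp⟩, -⟩
  have hfin : IsFiniteMeasure (μ.restrict (W p)) := ⟨by
    rw [Measure.restrict_apply_univ]
    exact hW4 p hp⟩
  refine ext_of_generate_finite {s | IsOpen s} (BorelSpace.measurable_eq (α := B)) ?_ ?_ ?_
  · intro s hs t ht _
    exact hs.inter ht
  · intro s hs
    have hs' : IsOpen s := hs
    rw [Measure.restrict_apply hs'.measurableSet, Measure.restrict_apply hs'.measurableSet]
    exact h _ (hs'.inter (hW1 p hp)) (inter_subset_right.trans (hW3 p hp))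
  · rw [Measure.restrict_apply_univ, Measure.restrict_apply_univ]
    exact h _ (hW1 p hp) (hW3 p hp)

end Glue

variable {Γ X B : Type} [Group Γ] [MetricSpace X] [ProperSpace X] [MulAction Γ X]
  [IsIsometricSMul Γ X] [TopologicalSpace B] [CompactSpace B] [T2Space B] [MulAction Γ B]
  [ContinuousConstSMul Γ B] [MeasurableSpace B] [BorelSpace B]

variable {L : Leaf Γ X B}

/-! ### The measure of a chart -/

/-- the weight in the chart -/
def wt (d : Dens0 L) (x : X) (u : E2) : ℝ≥0∞ :=
  ENNReal.ofReal (Real.exp (-d.h * L.lv x) * d.s x u)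

omit [MeasurableSpace B] [BorelSpace B] in
theorem s_contOn (d : Dens0 L) (x : X) : ContinuousOn (d.s x) (ball 0 3) :=
  d.s_cont.comp (f := fun u => (x, u)) (by fun_prop) (fun u hu => ⟨mem_univ _, hu⟩)

omit [MeasurableSpace B] [BorelSpace B] in
theorem wt_ae (d : Dens0 L) (x : X) : AEMeasurable (wt d x) (volume.restrict (ball (0 : E2) 3)) :=
  ((s_contOn d x).const_mul _).aemeasurable measurableSet_ball |>.ennreal_ofReal

omit [MeasurableSpace B] [BorelSpace B] in
theorem e_contOn (x : X) : ContinuousOn (L.e x) (closedBall 0 3) :=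
  L.e_cont.comp (f := fun u => (x, u)) (by fun_prop) (fun u hu => ⟨mem_univ _, hu⟩)

theorem e_ae (x : X) : AEMeasurable (L.e x) (volume.restrict (ball (0 : E2) 3)) :=
  ((e_contOn x).mono ball_subset_closedBall).aemeasurable measurableSet_ball

/-- the area in one chart, as a measure of `B` -/
def ma (d : Dens0 L) (x : X) : Measure B :=
  Measure.map (L.e x) ((volume.restrict (ball (0 : E2) 3)).withDensity (wt d x))

instance (d : Dens0 L) (x : X) : SFinite (ma d x) := by unfold ma; infer_instance

theorem e_ae' (d : Dens0 L) (x : X) :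
    AEMeasurable (L.e x) ((volume.restrict (ball (0 : E2) 3)).withDensity (wt d x)) :=
  (e_ae x).mono_ac (withDensity_absolutelyContinuous _ _)

theorem ma_apply (d : Dens0 L) (x : X) {A : Set B} (hA : MeasurableSet A) :
    ma d x A = ∫⁻ u in L.e x ⁻¹' A ∩ ball 0 3, wt d x u := by
  rw [ma, Measure.map_apply_of_aemeasurable (e_ae' d x) hA, withDensity_apply',
    Measure.restrict_restrict' measurableSet_ball]

theorem ma_lintegral (d : Dens0 L) (x : X) {g : B → ℝ≥0∞} (hg : Measurable g) :
    ∫⁻ η, g η ∂(ma d x) = ∫⁻ u in ball (0 : E2) 3, wt d x u * g (L.e x u) := by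
  rw [ma, lintegral_map' hg.aemeasurable (e_ae' d x)]
  exact lintegral_withDensity_eq_lintegral_mul₀ (wt_ae d x) (hg.comp_aemeasurable (e_ae x))

theorem meas_image (x : X) {A : Set E2} (hA : MeasurableSet A) (h3 : A ⊆ closedBall 0 3) :
    MeasurableSet (L.e x '' A) :=
  hA.image_of_continuousOn_injOn ((e_contOn x).mono h3) ((L.e_inj x).mono h3)

theorem ma_image (d : Dens0 L) (x : X) {A : Set E2} (hA : MeasurableSet A) (h3 : A ⊆ ball 0 3) :
    ma d x (L.e x '' A) = ∫⁻ u in A, wt d x u := by
  rw [ma_apply d x (meas_image x hA (h3.trans ball_subset_closedBall))]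
  have : L.e x ⁻¹' (L.e x '' A) ∩ ball 0 3 = A := by
    ext u
    constructor
    · rintro ⟨⟨v, hv, he⟩, hu⟩
      have := L.e_inj x (ball_subset_closedBall (h3 hv)) (ball_subset_closedBall hu) he
      rwa [← this]
    · intro hu
      exact ⟨⟨u, hu, rfl⟩, h3 hu⟩
  rw [this]

/-- change of charts in one leaf -/
theorem ma_overlap (d : Dens0 L) {x y : X} (hxy : L.em x = L.em y) {A : Set B}
    (hA : MeasurableSet A) (h1 : A ⊆ L.e x '' ball 0 3) (h2 : A ⊆ L.e y '' ball 0 3) :
    ma d x A = ma d y A := by
  have hcb : ball (0 : E2) 3 ⊆ closedBall 0 3 := ball_subset_closedBall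
  have hmeas : MeasurableSet (L.e x ⁻¹' A ∩ ball 0 3) := by
    have h := (((e_contOn (L := L) x).mono hcb).domRestrict).measurable hA
    have h' := (MeasurableEmbedding.subtype_coe
      (measurableSet_ball (x := (0 : E2)) (ε := 3))).measurableSet_image.2 h
    have h'' : (Subtype.val '' (((ball (0 : E2) 3).domRestrict (L.e x)) ⁻¹' A))
        = L.e x ⁻¹' A ∩ ball 0 3 := by
      ext u
      simp
    rwa [h''] at h'
  set A' : Set E2 := L.e x ⁻¹' A ∩ ball 0 3 with hA'
  have hsub : A' ⊆ L.dm x y := fun u hu => ⟨hu.2, h2 hu.1⟩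
  have himx : L.e x '' A' = A := by
    ext p
    constructor
    · rintro ⟨u, hu, rfl⟩
      exact hu.1
    · intro hp
      obtain ⟨u, hu, rfl⟩ := h1 hp
      exact ⟨u, ⟨hp, hu⟩, rfl⟩
  have hey : ∀ u ∈ A', L.e y (L.τ x y u) = L.e x u := fun u hu => by
    rw [tau_inv, e_inv (image_mono hcb (hsub hu).2)]
  have himy : L.e y '' (L.τ x y '' A') = A := by
    rw [image_image, ← himx]
    exact image_congr hey
  have hτs : ContDiffOn ℝ ∞ (L.τ x y) (L.dm x y) := L.tau_smooth x y hxy
  have hdo : IsOpen (L.dm x y) := by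
    have h3 := ((e_contOn (L := L) x).mono hcb).isOpen_inter_preimage isOpen_ball
      (open_disc' L y le_rfl)
    exact h3
  have hinj : InjOn (L.τ x y) A' := by
    intro u hu v hv huv
    have h4 : L.e x u = L.e x v := by rw [← hey u hu, ← hey v hv, huv]
    exact L.e_inj x (hcb hu.2) (hcb hv.2) h4
  have hder : ∀ u ∈ A', HasFDerivWithinAt (L.τ x y) (fderiv ℝ (L.τ x y) u) A' u := fun u hu =>
    ((hτs.contDiffAt (hdo.mem_nhds (hsub hu))).differentiableAt
      (by simp)).hasFDerivAt.hasFDerivWithinAt
  have hτm : MeasurableSet (L.τ x y '' A') :=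
    hmeas.image_of_continuousOn_injOn (fun u hu => (hder u hu).continuousWithinAt) hinj
  have hτ3 : L.τ x y '' A' ⊆ ball 0 3 := by
    rintro _ ⟨u, hu, rfl⟩
    exact inv_mem' hcb (hsub hu).2
  rw [← himx, ma_image d x hmeas inter_subset_right, himx, ← himy, ma_image d y hτm hτ3,
    lintegral_image_eq_lintegral_abs_det_fderiv_mul volume hmeas hder hinj]
  refine setLIntegral_congr_fun hmeas fun u hu => ?_
  rw [wt, wt, ← ENNReal.ofReal_mul (abs_nonneg _), d.s_trans x y hxy u (hsub hu)]
  congr 1
  have h5 : Real.exp (-d.h * L.lv x) * Real.exp (d.h * (L.lv x - L.lv y))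
      = Real.exp (-d.h * L.lv y) := by
    rw [← Real.exp_add]
    congr 1
    ring
  rw [← h5]
  ring

theorem ma_compl (d : Dens0 L) (x : X) : ma d x (L.e x '' ball 0 3)ᶜ = 0 := by
  rw [ma_apply d x (open_disc' L x le_rfl).measurableSet.compl]
  have : L.e x ⁻¹' (L.e x '' ball 0 3)ᶜ ∩ ball 0 3 = ∅ := by
    rw [eq_empty_iff_forall_notMem]
    rintro u ⟨h1, h2⟩
    exact h1 ⟨u, h2, rfl⟩
  rw [this]
  simp

/-! ### The measure of a leaf -/

theorem exists_sig (d : Dens0 L) (ξ : B) : ∃ μ : Measure B, SFinite μ ∧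
    ∀ x, L.em x = ξ → μ.restrict (L.e x '' ball 0 3) = ma d x := by
  have := secondCountable L
  obtain ⟨μ, h1, h2, -⟩ := exists_glue (fun x : {x : X // L.em x = ξ} => L.e x.1 '' ball 0 3)
    (fun x => open_disc' L x.1 le_rfl) (fun x => ma d x.1) (fun x => inferInstance)
    (fun x y => by
      ext S hS
      have hm : MeasurableSet (L.e x.1 '' ball 0 3 ∩ L.e y.1 '' ball 0 3) :=
        (open_disc' L x.1 le_rfl).measurableSet.inter (open_disc' L y.1 le_rfl).measurableSet
      rw [Measure.restrict_apply hS, Measure.restrict_apply hS]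
      exact ma_overlap d (x.2.trans y.2.symm) (hS.inter hm)
        (inter_subset_right.trans inter_subset_left) (inter_subset_right.trans inter_subset_right))
  refine ⟨μ, h1, fun x hx => ?_⟩
  rw [h2 ⟨x, hx⟩]
  exact Measure.restrict_eq_self_of_ae_mem (measure_eq_zero_iff_ae_notMem.1 (ma_compl d x) |>.mono
    fun p hp => by simpa using hp)

/-- the measure of a leaf -/
def sig (d : Dens0 L) (ξ : B) : Measure B := Classical.choose (exists_sig d ξ)

instance (d : Dens0 L) (ξ : B) : SFinite (sig d ξ) := (Classical.choose_spec (exists_sig d ξ)).1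

theorem sig_restrict (d : Dens0 L) {ξ : B} {x : X} (hx : L.em x = ξ) :
    (sig d ξ).restrict (L.e x '' ball 0 3) = ma d x :=
  (Classical.choose_spec (exists_sig d ξ)).2 x hx

theorem sig_lintegral (d : Dens0 L) {x : X} {g : B → ℝ≥0∞} (hg : Measurable g)
    (h0 : ∀ η, g η ≠ 0 → η ∈ L.e x '' ball 0 2) :
    ∫⁻ η, g η ∂(sig d (L.em x))
      = ∫⁻ u in closedBall (0 : E2) 2,
        ENNReal.ofReal (Real.exp (-d.h * L.lv x) * st d x u) * g (et L x u) := by
  have h23 : closedBall (0 : E2) 2 ⊆ ball 0 3 := closedBall_subset_ball (by norm_num)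
  rw [← setLIntegral_eq_of_support_subset (s := L.e x '' ball 0 3)
    (fun η hη => image_mono (ball_subset_ball (by norm_num)) (h0 η hη)), sig_restrict d rfl,
    ma_lintegral d x hg]
  have h1 : ∀ u ∈ ball (0 : E2) 3, wt d x u * g (L.e x u)
      = (closedBall (0 : E2) 2).indicator (fun u =>
        ENNReal.ofReal (Real.exp (-d.h * L.lv x) * st d x u) * g (et L x u)) u := by
    intro u hu
    by_cases h2 : u ∈ closedBall (0 : E2) 2
    · rw [indicator_of_mem h2, wt, st_eq d x h2, et_eq x h2]
    · rw [indicator_of_notMem h2]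
      have : g (L.e x u) = 0 := by
        by_contra hc
        obtain ⟨v, hv, he⟩ := h0 _ hc
        have := L.e_inj x (ball_subset_closedBall (ball_subset_ball (by norm_num) hv))
          (ball_subset_closedBall hu) he
        exact h2 (this ▸ ball_subset_closedBall hv)
      rw [this, mul_zero]
  rw [setLIntegral_congr_fun measurableSet_ball h1, setLIntegral_indicator measurableSet_closedBall,
    inter_eq_self_of_subset_left h23]

end Vale.Agent.P207.N4.H824
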