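import Vale.Agent.P207.N4.Dim
import Vale.Agent.P207.N4.H824.Sig

/-!
# Invariance under the stable holonomy (helper824, P2-N)
-/

open Set Filter Topology Metric MeasureTheory
open scoped ContDiff ENNReal

noncomputable section

namespace Vale.Agent.P207.N4.H824

open Vale.Agent.P207.N3 Vale.Agent.P207.N3.H824

variable [Dim]

variable {Γ X B : Type} [Group Γ] [MetricSpace X] [ProperSpace X] [MulAction Γ X]
  [IsIsometricSMul Γ X] [TopologicalSpace B] [CompactSpace B] [T2Space B] [MulAction Γ B]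
  [ContinuousConstSMul Γ B]

/-! ### Uniformity over compact sets of end points -/

section Unif

variable (L : Leaf Γ X B)

theorem D_contOn (ζ : B) : ContinuousOn (D L ζ) {ζ}ᶜ :=
  (D_cont L).comp (f := fun η => (ζ, η)) (by fun_prop) (fun _ hη => Ne.symm hη)

theorem exists_base {x : X} {ξ : B} {K : Set B} (h1 : L.em x = ξ) (h2 : L.ep x ∈ K) :
    ∃ y ∈ {x : X | L.em x = ξ ∧ L.ep x ∈ K ∧ L.lv x = 0}, x = L.φ (L.lv x) y := by
  refine ⟨L.φ (-L.lv x) x, ⟨by rw [L.em_φ, h1], by rwa [ep_φ], by rw [L.lv_φ]; ring⟩, ?_⟩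
  rw [← L.φ_add, add_neg_cancel, L.φ_zero]

/-- the discs shrink -/
theorem unif_shrink {ξ : B} {K O : Set B} (hK : IsCompact K) (hO : IsOpen O) (hKO : K ⊆ O)
    (hξ : ξ ∉ K) : ∃ T, ∀ x, L.em x = ξ → L.ep x ∈ K → T ≤ L.lv x →
      L.e x '' ball 0 3 ⊆ O := by
  obtain ⟨T, hT⟩ := shrink L (compact_frames L hK hξ 0) (O := {p : X × B | p.2 ∈ O})
    (hO.preimage continuous_snd) (fun x hx => hKO hx.2.1)
  refine ⟨T, fun x h1 h2 h3 => ?_⟩
  obtain ⟨y, hy, hxy⟩ := exists_base L h1 h2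
  rintro _ ⟨u, hu, rfl⟩
  rw [hxy]
  exact hT y hy _ h3 u hu

/-- the stable holonomy is close to the identity -/
theorem unif_hol {ξ ζ : B} {K : Set B} (hK : IsCompact K) (hξ : ξ ∉ K) (hζ : ζ ∉ K)
    {δ : ℝ} (hδ : 0 < δ) : ∃ T, ∀ x, L.em x = ξ → L.ep x ∈ K → T ≤ L.lv x →
      dist x (L.hol ζ x) < δ := by
  have hne : ∀ p ∈ ({ζ} : Set B) ×ˢ {x : X | L.em x = ξ ∧ L.ep x ∈ K ∧ L.lv x = 0},
      p.1 ≠ L.ep p.2 := by
    rintro ⟨a, x⟩ ⟨ha, hx⟩ hc
    have ha' : a = ζ := ha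
    have hc' : a = L.ep x := hc
    apply hζ
    rw [← ha', hc']
    exact hx.2.1
  obtain ⟨C, hC⟩ := L.hol_asym _ (isCompact_singleton.prod (compact_frames L hK hξ 0)) hne
  have h2 : Tendsto (fun t : ℝ => C * Real.exp (-L.χ * t)) atTop (𝓝 (C * 0)) := by
    refine Tendsto.const_mul _ (Real.tendsto_exp_atBot.comp ?_)
    exact tendsto_id.const_mul_atTop_of_neg (by linarith [L.χ_pos])
  rw [mul_zero] at h2
  obtain ⟨T, hT⟩ := (((h2.eventually (gt_mem_nhds hδ))).and
    (eventually_ge_atTop 0)).exists_forall_of_atTop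
  refine ⟨T, fun x h1 h2 h3 => ?_⟩
  obtain ⟨y, hy, hxy⟩ := exists_base L h1 h2
  have h4 := hC (ζ, y) ⟨rfl, hy⟩ (L.lv x) (hT _ h3).2
  have h5 : ζ ≠ L.ep y := hne (ζ, y) ⟨rfl, hy⟩
  have h6 : L.hol ζ x = L.φ (L.lv x) (L.hol ζ y) := by
    conv_lhs => rw [hxy]
    rw [L.hol_φ _ _ _ h5]
  have h7 : dist x (L.hol ζ x) = dist (L.φ (L.lv x) y) (L.φ (L.lv x) (L.hol ζ y)) := by
    rw [h6, ← hxy]
  rw [h7]
  exact h4.trans_lt (hT _ h3).1

/-- `D` is nearly constant on the discs -/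
theorem unif_D {ξ ζ : B} {K : Set B} (hK : IsCompact K) (hξ : ξ ∉ K) (hζ : ζ ∉ K)
    {ε : ℝ} (hε : 0 < ε) : ∃ T, ∀ x, L.em x = ξ → L.ep x ∈ K → T ≤ L.lv x →
      ∀ u ∈ ball (0 : E2) 3, |D L ζ (L.e (L.hol ζ x) u) - D L ζ (L.ep x)| < ε := by
  have hne : ∀ x ∈ {x : X | L.em x = ξ ∧ L.ep x ∈ K ∧ L.lv x = 0}, ζ ≠ L.ep x := by
    rintro x hx hc
    apply hζ
    rw [hc]
    exact hx.2.1
  have hK0 : IsCompact (L.hol ζ '' {x : X | L.em x = ξ ∧ L.ep x ∈ K ∧ L.lv x = 0}) := by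
    refine (compact_frames L hK hξ 0).image_of_continuousOn ?_
    exact L.hol_cont.comp (f := fun x => (ζ, x)) (by fun_prop) (fun x hx => hne x hx)
  have hO1 : IsOpen {p : X × B | L.em p.1 ≠ p.2} :=
    isOpen_ne_fun (L.em_cont.comp continuous_fst) continuous_snd
  have hc : ContinuousOn (fun p : X × B => D L (L.em p.1) p.2 - D L (L.em p.1) (L.ep p.1))
      {p : X × B | L.em p.1 ≠ p.2} := by
    have c1 : ContinuousOn (fun p : X × B => D L (L.em p.1) p.2) {p : X × B | L.em p.1 ≠ p.2} :=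
      (D_cont L).comp (f := fun p : X × B => (L.em p.1, p.2)) (by
        have := L.em_cont
        fun_prop) (fun p hp => hp)
    have c2 : Continuous (fun p : X × B => D L (L.em p.1) (L.ep p.1)) := by
      have : (fun p : X × B => D L (L.em p.1) (L.ep p.1)) = fun p => L.lv p.1 + L.lp p.1 :=
        funext fun p => D_eq L p.1
      rw [this]
      have c3 := L.lv_cont
      have c4 := lp_cont L
      fun_prop
    exact c1.sub c2.continuousOn
  obtain ⟨T, hT⟩ := shrink L hK0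
    (O := {p : X × B | L.em p.1 ≠ p.2} ∩
      (fun p : X × B => D L (L.em p.1) p.2 - D L (L.em p.1) (L.ep p.1)) ⁻¹' ball 0 ε)
    (hc.isOpen_inter_preimage hO1 isOpen_ball) (by
      rintro _ ⟨x, hx, rfl⟩
      refine ⟨L.em_ne_ep _, ?_⟩
      simpa using hε)
  refine ⟨T, fun x h1 h2 h3 u hu => ?_⟩
  obtain ⟨y, hy, hxy⟩ := exists_base L h1 h2
  have h4 := (hT (L.hol ζ y) ⟨y, hy, rfl⟩ (L.lv x) h3 u hu).2
  have h5 : L.hol ζ x = L.φ (L.lv x) (L.hol ζ y) := by
    conv_lhs => rw [hxy]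
    rw [L.hol_φ _ _ _ (hne y hy)]
  have h6 : L.ep x = L.ep y := by
    conv_lhs => rw [hxy]
    rw [ep_φ]
  rw [h5, h6]
  simpa [L.hol_em _ _ (hne y hy), L.hol_ep _ _ (hne y hy)] using h4

end Unif

variable {L : Leaf Γ X B}
variable [MeasurableSpace B] [BorelSpace B]

theorem D_meas (L : Leaf Γ X B) (ζ : B) : Measurable (D L ζ) :=
  measurable_of_continuousOn_compl_singleton ζ (D_contOn L ζ)

/-- the density `e^{h D(ζ, η)}` -/
def eD (d : Dens0 L) (ζ η : B) : ℝ≥0∞ := ENNReal.ofReal (Real.exp (d.h * D L ζ η))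

theorem eD_meas (d : Dens0 L) (ζ : B) : Measurable (eD d ζ) :=
  ((D_meas L ζ).const_mul _).exp.ennreal_ofReal

/-- the measure seen from `ζ` -/
def mu (d : Dens0 L) (ζ : B) : Measure B := (sig d ζ).withDensity (eD d ζ)

instance (d : Dens0 L) (ζ : B) : SFinite (mu d ζ) := by unfold mu; infer_instance

theorem mu_lintegral (d : Dens0 L) (ζ : B) {g : B → ℝ≥0∞} (hg : Measurable g) :
    ∫⁻ η, g η ∂(mu d ζ) = ∫⁻ η, eD d ζ η * g η ∂(sig d ζ) :=
  lintegral_withDensity_eq_lintegral_mul _ (eD_meas d ζ) hg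

theorem ker_meas (d : Dens0 L) {r : ℝ} (hr0 : 0 < r) (hr : r ≤ 1) (ha : Adm L r) (x : X) (c : ℝ) :
    Measurable fun η => ENNReal.ofReal (c * ker d r x η) := by
  have h := (ker_cont d hr0 hr ha).comp (f := fun η : B => (x, η)) (by fun_prop)
  exact (h.measurable.const_mul c).ennreal_ofReal

theorem ker_int (d : Dens0 L) {r : ℝ} (hr0 : 0 < r) (hr : r ≤ 1) (ha : Adm L r) {x x' : X}
    (hep : L.ep x' = L.ep x) (hlp : L.lp x' = L.lp x)
    (hsupp : ∀ η, ker d r x η ≠ 0 → η ∈ L.e x' '' ball 0 2) :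
    ∫⁻ η, ENNReal.ofReal (Real.exp (d.h * L.lv x) * ker d r x η) ∂(mu d (L.em x'))
      = ∫⁻ u in closedBall (0 : E2) 2, ENNReal.ofReal
        (Real.exp (d.h * D L (L.em x) (L.ep x)
          + d.h * (D L (L.em x') (et L x' u) - D L (L.em x') (L.ep x)))
          * (ker d r x (et L x' u) * st d x' u)) := by
  have hm := ker_meas d hr0 hr ha x (Real.exp (d.h * L.lv x))
  rw [mu_lintegral d _ hm, sig_lintegral d (x := x')
    (g := fun η => eD d (L.em x') η * ENNReal.ofReal (Real.exp (d.h * L.lv x) * ker d r x η))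
    ((eD_meas d _).mul hm) ?_]
  · refine lintegral_congr fun u => ?_
    have hD : D L (L.em x') (L.ep x) = L.lv x' + L.lp x := by
      rw [← hep, D_eq, hlp]
    rw [D_eq L x, hD, eD, ← ENNReal.ofReal_mul (Real.exp_pos _).le,
      ← ENNReal.ofReal_mul (mul_nonneg (Real.exp_pos _).le (st_pos d _ _).le)]
    congr 1
    have h1 : Real.exp (d.h * (L.lv x + L.lp x)
        + d.h * (D L (L.em x') (et L x' u) - (L.lv x' + L.lp x)))
        = Real.exp (-d.h * L.lv x') * Real.exp (d.h * D L (L.em x') (et L x' u))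
          * Real.exp (d.h * L.lv x) := by
      rw [← Real.exp_add, ← Real.exp_add]
      congr 1
      ring
    rw [h1]
    ring
  · intro η hη
    apply hsupp
    intro hc
    apply hη
    rw [hc]
    simp

omit [MeasurableSpace B] [BorelSpace B] in
theorem ker_intble (d : Dens0 L) {r : ℝ} (hr0 : 0 < r) (hr : r ≤ 1) (ha : Adm L r) (x x' : X)
    (c : ℝ) : IntegrableOn (fun u => c * (ker d r x (et L x' u) * st d x' u))
      (closedBall (0 : E2) 2) := by
  refine ContinuousOn.integrableOn_compact (isCompact_closedBall _ _) ?_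
  have h1 := (ker_cont d hr0 hr ha).comp (f := fun u : E2 => (x, et L x' u)) (by
    have := (et_cont L).comp (f := fun u : E2 => (x', u)) (by fun_prop)
    exact continuous_const.prodMk this)
  exact (continuous_const.mul (h1.mul (cst d x'))).continuousOn

omit [MeasurableSpace B] [BorelSpace B] in
theorem ker_lint (d : Dens0 L) {r : ℝ} (hr0 : 0 < r) (hr : r ≤ 1) (ha : Adm L r) (x x' : X)
    {c : ℝ} (hc : 0 ≤ c) : ∫⁻ u in closedBall (0 : E2) 2,
      ENNReal.ofReal (c * (ker d r x (et L x' u) * st d x' u))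
        = ENNReal.ofReal (c * J d r (x, x')) := by
  rw [← ofReal_integral_eq_lintegral_ofReal (ker_intble d hr0 hr ha x x' c)
    (ae_of_all _ fun u => mul_nonneg hc (mul_nonneg (ker_nonneg d hr0 hr _ _) (st_pos d _ _).le)),
    integral_const_mul]
  rfl

theorem ker_up (d : Dens0 L) {r : ℝ} (hr0 : 0 < r) (hr : r ≤ 1) (ha : Adm L r) {x x' : X}
    (hep : L.ep x' = L.ep x) (hlp : L.lp x' = L.lp x)
    (hsupp : ∀ η, ker d r x η ≠ 0 → η ∈ L.e x' '' ball 0 2) {ε : ℝ}
    (hε : ∀ u ∈ closedBall (0 : E2) 2,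
      d.h * (D L (L.em x') (et L x' u) - D L (L.em x') (L.ep x)) ≤ ε) :
    ∫⁻ η, ENNReal.ofReal (Real.exp (d.h * L.lv x) * ker d r x η) ∂(mu d (L.em x'))
      ≤ ENNReal.ofReal (Real.exp (d.h * D L (L.em x) (L.ep x) + ε) * J d r (x, x')) := by
  rw [ker_int d hr0 hr ha hep hlp hsupp, ← ker_lint d hr0 hr ha x x' (Real.exp_pos _).le]
  refine setLIntegral_mono' measurableSet_closedBall fun u hu => ENNReal.ofReal_le_ofReal ?_
  refine mul_le_mul_of_nonneg_right (Real.exp_le_exp.2 ?_)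
    (mul_nonneg (ker_nonneg d hr0 hr _ _) (st_pos d _ _).le)
  linarith [hε u hu]

theorem ker_low (d : Dens0 L) {r : ℝ} (hr0 : 0 < r) (hr : r ≤ 1) (ha : Adm L r) {x x' : X}
    (hep : L.ep x' = L.ep x) (hlp : L.lp x' = L.lp x)
    (hsupp : ∀ η, ker d r x η ≠ 0 → η ∈ L.e x' '' ball 0 2) {ε : ℝ}
    (hε : ∀ u ∈ closedBall (0 : E2) 2,
      -ε ≤ d.h * (D L (L.em x') (et L x' u) - D L (L.em x') (L.ep x))) :
    ENNReal.ofReal (Real.exp (d.h * D L (L.em x) (L.ep x) - ε) * J d r (x, x')) ≤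
    ∫⁻ η, ENNReal.ofReal (Real.exp (d.h * L.lv x) * ker d r x η) ∂(mu d (L.em x')) := by
  rw [ker_int d hr0 hr ha hep hlp hsupp, ← ker_lint d hr0 hr ha x x' (Real.exp_pos _).le]
  refine setLIntegral_mono' measurableSet_closedBall fun u hu => ENNReal.ofReal_le_ofReal ?_
  refine mul_le_mul_of_nonneg_right (Real.exp_le_exp.2 ?_)
    (mul_nonneg (ker_nonneg d hr0 hr _ _) (st_pos d _ _).le)
  linarith [hε u hu]

/-! ### The kernel on `B × B` -/

open Classical in
/-- the kernel -/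
def KT (d : Dens0 L) (r : ℝ) (ξ : B) (T : ℝ) : B × B → ℝ≥0∞ :=
  ({p : B × B | p.2 = ξ}).piecewise (fun _ => 0)
    (fun p => ENNReal.ofReal (Real.exp (d.h * T) * kap d r (frm L ξ p.2 T) p.1))

omit [MeasurableSpace B] [BorelSpace B] in
theorem KT_eq (d : Dens0 L) (r : ℝ) {ξ : B} (T : ℝ) (η : B) {η' : B} (h : ξ ≠ η') :
    KT d r ξ T (η, η') = ENNReal.ofReal (Real.exp (d.h * T) * kap d r (frm L ξ η' T) η) := by
  rw [KT, piecewise_eq_of_notMem]
  exact fun hc => h (Eq.symm hc)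

omit [MeasurableSpace B] [BorelSpace B] in
theorem KT_self (d : Dens0 L) (r : ℝ) (ξ : B) (T : ℝ) (η : B) : KT d r ξ T (η, ξ) = 0 := by
  rw [KT, piecewise_eq_of_mem]
  rfl

open Classical in
theorem KT_meas (d : Dens0 L) {r : ℝ} (hr0 : 0 < r) (hr : r ≤ 1) (ξ : B) (T : ℝ) :
    Measurable (KT d r ξ T) := by
  have := secondCountable L
  have h1 := descend_on L (Z := B) (f := fun p : X × B => kap d r p.1 p.2) (kap_cont d hr0 hr)
    (fun a x z => kap_rot d hr a x z)
  have h2 : ContinuousOn (fun p : B × B => kap d r (frm L ξ p.2 T) p.1) {p : B × B | p.2 = ξ}ᶜ :=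
    h1.comp (f := fun p : B × B => (((ξ, p.2), T), p.1)) (by fun_prop)
      (fun p hp => fun hc => hp (Eq.symm hc))
  refine ContinuousOn.measurable_piecewise continuousOn_const ?_
    (isClosed_eq continuous_snd continuous_const).measurableSet
  exact ENNReal.continuous_ofReal.comp_continuousOn (h2.const_mul _)

omit [MeasurableSpace B] [BorelSpace B] in
theorem KT_center (d : Dens0 L) (r : ℝ) (x : X) (η' : B) :
    KT d r (L.em x) (L.lv x) (L.ep x, η')
      = ENNReal.ofReal (Real.exp (d.h * L.lv x) * ker d r x η') := by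
  by_cases h : L.em x = η'
  · rw [← h, KT_self, ker, if_pos rfl]
    simp
  · rw [KT_eq d r _ _ h, ker_eq d r h]

theorem KT_norm (d : Dens0 L) {r : ℝ} (hr0 : 0 < r) (hr : r ≤ 1) {ξ η' : B} (h : ξ ≠ η')
    (T : ℝ) : ∫⁻ η, KT d r ξ T (η, η') ∂(sig d ξ) = 1 := by
  set z := frm L ξ η' T with hz
  have hz1 : L.em z = ξ := em_frm h _
  have hz3 : L.lv z = T := lv_frm h _
  simp only [KT_eq d r T _ h, ← hz]
  have hm : Measurable fun η => ENNReal.ofReal (Real.exp (d.h * T) * kap d r z η) := by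
    have h := (kap_cont d hr0 hr).comp (f := fun η : B => (z, η)) (by fun_prop)
    exact (h.measurable.const_mul _).ennreal_ofReal
  rw [← hz1, sig_lintegral d hm ?_]
  · have h1 : ∀ u ∈ closedBall (0 : E2) 2,
        ENNReal.ofReal (Real.exp (-d.h * L.lv z) * st d z u)
          * ENNReal.ofReal (Real.exp (d.h * T) * kap d r z (et L z u))
        = ENNReal.ofReal ((mass d r z)⁻¹ * (bump r u * st d z u)) := by
      intro u hu
      rw [← ENNReal.ofReal_mul (mul_nonneg (Real.exp_pos _).le (st_pos d _ _).le), kap, hz3,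
        et_eq z hu, Psi_e r z (closedBall_subset_closedBall (by norm_num) hu)]
      congr 1
      have h2 : Real.exp (-d.h * T) * Real.exp (d.h * T) = 1 := by
        rw [← Real.exp_add]
        simp
      have h3 : Real.exp (-d.h * T) * st d z u * (Real.exp (d.h * T) * (bump r u / mass d r z))
          = (Real.exp (-d.h * T) * Real.exp (d.h * T)) * (st d z u * (bump r u / mass d r z)) := by
        ring
      rw [h3, h2, div_eq_mul_inv]
      ring
    rw [setLIntegral_congr_fun measurableSet_closedBall h1,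
      ← ofReal_integral_eq_lintegral_ofReal ?_ (ae_of_all _ fun u =>
        mul_nonneg (inv_nonneg.2 (mass_pos d hr0 hr z).le)
          (mul_nonneg (bump_nonneg _ _) (st_pos d _ _).le)), integral_const_mul]
    · have h4 : ∫ u in closedBall (0 : E2) 2, bump r u * st d z u = mass d r z := rfl
      rw [h4, inv_mul_cancel₀ (mass_pos d hr0 hr z).ne', ENNReal.ofReal_one]
    · refine ContinuousOn.integrableOn_compact (isCompact_closedBall _ _) ?_
      exact (continuous_const.mul ((bump_cont r).mul (cst d z))).continuousOn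
  · intro η hη
    have h2 : kap d r z η ≠ 0 := fun hc => hη (by rw [hc]; simp)
    exact image_mono (closedBall_subset_ball (by linarith)) (mem_of_kap h2)

omit [MeasurableSpace B] [BorelSpace B] in
theorem KT_supp (d : Dens0 L) {r : ℝ} {ξ η η' : B} (h : ξ ≠ η') {T : ℝ}
    (hK : KT d r ξ T (η, η') ≠ 0) : η ∈ L.e (frm L ξ η' T) '' closedBall 0 r := by
  rw [KT_eq d r T _ h] at hK
  exact mem_of_kap (fun hc => hK (by rw [hc]; simp))

end Vale.Agent.P207.N4.H824
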