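import Vale.Agent.P207.N4.Dim
import Vale.Agent.P207.N4.H824.Shr

/-!
# The kernel (helper824, P2-N)
-/

open Set Filter Topology Metric MeasureTheory
open scoped ContDiff

noncomputable section

namespace Vale.Agent.P207.N4.H824

open Vale.Agent.P207.N3 Vale.Agent.P207.N3.H824

variable [Dim]

variable {Γ X B : Type} [Group Γ] [MetricSpace X] [ProperSpace X] [MulAction Γ X]
  [IsIsometricSMul Γ X] [TopologicalSpace B] [CompactSpace B] [T2Space B] [MulAction Γ B]
  [ContinuousConstSMul Γ B]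

/-- continuous densities in the charts -/
structure Dens0 (L : Leaf Γ X B) where
  h : ℝ
  s : X → E2 → ℝ
  s_pos : ∀ x, ∀ u ∈ ball (0 : E2) 3, 0 < s x u
  s_cont : ContinuousOn (fun p : X × E2 => s p.1 p.2) (univ ×ˢ ball 0 3)
  s_smul : ∀ (g : Γ) x, ∀ u ∈ ball (0 : E2) 3, s (g • x) u = s x u
  s_trans : ∀ x y, L.em x = L.em y → ∀ u ∈ L.dm x y,
    s x u = Real.exp (h * (L.lv x - L.lv y)) * |(fderiv ℝ (L.τ x y) u).det| * s y (L.τ x y u)

theorem det_isom (a : O2) : |(a : E2 →L[ℝ] E2).det| = 1 := by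
  have h1 := Measure.addHaar_image_continuousLinearMap (volume : Measure E2) (a : E2 →L[ℝ] E2)
    (ball 0 1)
  have h2 : (a : E2 →L[ℝ] E2) '' ball 0 1 = ball 0 1 := by
    ext v
    constructor
    · rintro ⟨u, hu, rfl⟩
      simpa using hu
    · intro hv
      exact ⟨a.symm v, by simpa using hv, by simp⟩
  rw [h2] at h1
  have h3 : volume (ball (0 : E2) 1) ≠ 0 := (measure_ball_pos _ _ one_pos).ne'
  have h4 : volume (ball (0 : E2) 1) ≠ ⊤ := measure_ball_lt_top.ne
  have h5 : ENNReal.ofReal |(a : E2 →L[ℝ] E2).det| = 1 := by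
    have h6 : ENNReal.ofReal |(a : E2 →L[ℝ] E2).det| * volume (ball (0 : E2) 1)
        = 1 * volume (ball (0 : E2) 1) := by rw [← h1, one_mul]
    exact (ENNReal.mul_left_inj h3 h4).1 h6
  rwa [ENNReal.ofReal_eq_one] at h5

variable {L : Leaf Γ X B}

theorem s_rot (d : Dens0 L) (a : O2) (x : X) {u : E2} (hu : u ∈ ball (0 : E2) 3) :
    d.s (L.rot a x) u = d.s x (a u) := by
  have hau : ∀ v ∈ ball (0 : E2) 3, a v ∈ ball (0 : E2) 3 := fun v hv => by simpa using hv
  have hcb : ball (0 : E2) 3 ⊆ closedBall 0 3 := ball_subset_closedBall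
  have hτ : ∀ v ∈ ball (0 : E2) 3, L.τ (L.rot a x) x v = a v := by
    intro v hv
    rw [tau_inv, L.e_rot a x v (hcb hv), inv_e (hcb (hau v hv))]
  have hdm : u ∈ L.dm (L.rot a x) x := ⟨hu, a u, hau u hu, (L.e_rot a x u (hcb hu)).symm⟩
  have h1 := d.s_trans (L.rot a x) x (L.em_rot a x) u hdm
  have h2 : fderiv ℝ (L.τ (L.rot a x) x) u = (a : E2 →L[ℝ] E2) := by
    have h3 : L.τ (L.rot a x) x =ᶠ[𝓝 u] (a : E2 →L[ℝ] E2) := by
      filter_upwards [isOpen_ball.mem_nhds hu] with v hv
      exact hτ v hv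
    rw [h3.fderiv_eq]
    exact (a : E2 →L[ℝ] E2).fderiv
  rw [h1, L.lv_rot, sub_self, mul_zero, Real.exp_zero, one_mul, h2, det_isom, one_mul, hτ u hu]

/-! ### Truncations -/

/-- the retraction to the disc of radius `2` -/
def rt (u : E2) : E2 := (2 / max 2 ‖u‖) • u

theorem rt_cont : Continuous rt := by
  have h : Continuous fun u : E2 => max 2 ‖u‖ := by fun_prop
  exact (Continuous.div continuous_const h fun u =>
    (lt_of_lt_of_le (by norm_num : (0 : ℝ) < 2) (le_max_left _ _)).ne').smul continuous_id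

theorem rt_mem (u : E2) : rt u ∈ closedBall (0 : E2) 2 := by
  have h0 : (0 : ℝ) < max 2 ‖u‖ := lt_of_lt_of_le (by norm_num) (le_max_left _ _)
  rw [mem_closedBall_zero_iff, rt, norm_smul, Real.norm_eq_abs, abs_of_pos (by positivity),
    div_mul_eq_mul_div, div_le_iff₀ h0]
  exact mul_le_mul_of_nonneg_left (le_max_right _ _) (by norm_num)

theorem rt_mem3 (u : E2) : rt u ∈ ball (0 : E2) 3 :=
  closedBall_subset_ball (by norm_num) (rt_mem u)

theorem rt_eq {u : E2} (hu : u ∈ closedBall (0 : E2) 2) : rt u = u := by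
  have : max 2 ‖u‖ = 2 := max_eq_left (mem_closedBall_zero_iff.1 hu)
  rw [rt, this]
  simp

/-- the truncated density -/
def st (d : Dens0 L) (x : X) (u : E2) : ℝ := d.s x (rt u)

theorem st_cont (d : Dens0 L) : Continuous fun p : X × E2 => st d p.1 p.2 :=
  d.s_cont.comp_continuous (f := fun p : X × E2 => (p.1, rt p.2))
    (continuous_fst.prodMk (rt_cont.comp continuous_snd)) (fun _ => ⟨mem_univ _, rt_mem3 _⟩)

theorem st_pos (d : Dens0 L) (x : X) (u : E2) : 0 < st d x u := d.s_pos x _ (rt_mem3 u)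

theorem st_eq (d : Dens0 L) (x : X) {u : E2} (hu : u ∈ closedBall (0 : E2) 2) :
    st d x u = d.s x u := by rw [st, rt_eq hu]

theorem st_smul (d : Dens0 L) (g : Γ) (x : X) (u : E2) : st d (g • x) u = st d x u :=
  d.s_smul g x _ (rt_mem3 u)

variable (L) in
/-- the truncated chart -/
def et (x : X) (u : E2) : B := L.e x (rt u)

variable (L) in
theorem et_cont : Continuous fun p : X × E2 => et L p.1 p.2 :=
  L.e_cont.comp_continuous (f := fun p : X × E2 => (p.1, rt p.2))
    (continuous_fst.prodMk (rt_cont.comp continuous_snd))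
    (fun _ => ⟨mem_univ _, ball_subset_closedBall (rt_mem3 _)⟩)

theorem et_eq (x : X) {u : E2} (hu : u ∈ closedBall (0 : E2) 2) : et L x u = L.e x u := by
  rw [et, rt_eq hu]

theorem et_smul (g : Γ) (x : X) (u : E2) : et L (g • x) u = g • et L x u :=
  L.e_smul g x _ (ball_subset_closedBall (rt_mem3 u))

/-! ### The bump -/

/-- the bump of the plane -/
def bump (r : ℝ) (u : E2) : ℝ := max 0 (r - ‖u‖)

theorem bump_cont (r : ℝ) : Continuous (bump r) := by unfold bump; fun_prop

theorem bump_nonneg (r : ℝ) (u : E2) : 0 ≤ bump r u := le_max_left _ _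

theorem bump_zero {r : ℝ} {u : E2} (h : r ≤ ‖u‖) : bump r u = 0 :=
  max_eq_left (by linarith)

theorem mem_of_bump {r : ℝ} {u : E2} (h : bump r u ≠ 0) : u ∈ closedBall (0 : E2) r := by
  rw [mem_closedBall_zero_iff]
  by_contra hc
  exact h (bump_zero (not_le.1 hc).le)

variable (L) in
/-- the bump in the chart `e x` -/
def Psi (r : ℝ) (x : X) (η : B) : ℝ :=
  open Classical in
  if η ∈ L.e x '' closedBall 0 3 then bump r (inv L x η) else 0

theorem Psi_nonneg (r : ℝ) (x : X) (η : B) : 0 ≤ Psi L r x η := by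
  unfold Psi
  split_ifs
  · exact bump_nonneg _ _
  · exact le_rfl

theorem Psi_e (r : ℝ) (x : X) {u : E2} (hu : u ∈ closedBall (0 : E2) 3) :
    Psi L r x (L.e x u) = bump r u := by
  rw [Psi, if_pos ⟨u, hu, rfl⟩, inv_e hu]

theorem mem_of_Psi {r : ℝ} {x : X} {η : B} (h : Psi L r x η ≠ 0) :
    η ∈ L.e x '' (closedBall 0 r ∩ closedBall 0 3) := by
  unfold Psi at h
  split_ifs at h with hm
  · exact ⟨inv L x η, ⟨mem_of_bump h, inv_mem hm⟩, e_inv hm⟩
  · exact absurd rfl h

variable (L) in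
theorem Psi_cont {r : ℝ} (hr : r ≤ 1) : Continuous fun p : X × B => Psi L r p.1 p.2 := by
  rw [continuous_iff_continuousAt]
  intro p
  by_cases hp : p.2 ∈ L.e p.1 '' ball 0 3
  · have hO := L.e_open.mem_nhds (x := p) hp
    have h1 : ContinuousAt (fun p : X × B => inv L p.1 p.2) p :=
      (inv_cont L).continuousAt (mem_of_superset hO fun q hq =>
        image_mono ball_subset_closedBall hq)
    refine ((bump_cont r).continuousAt.comp h1).congr ?_
    filter_upwards [hO] with q hq
    rw [Psi, if_pos (image_mono ball_subset_closedBall hq)]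
    rfl
  · have hO : {q : X × B | q.2 ∈ L.e q.1 '' closedBall 0 2}ᶜ ∈ 𝓝 p :=
      (closed_disc L isClosed_closedBall
        (closedBall_subset_closedBall (by norm_num))).isOpen_compl.mem_nhds (fun hc =>
          hp (image_mono (closedBall_subset_ball (by norm_num)) hc))
    refine (continuousAt_const (y := (0 : ℝ))).congr ?_
    filter_upwards [hO] with q hq
    by_contra hne
    have h2 := mem_of_Psi (Ne.symm hne)
    exact hq (image_mono (inter_subset_left.trans
      (closedBall_subset_closedBall (by linarith))) h2)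

theorem inv_smul (g : Γ) {x : X} {η : B} (h : η ∈ L.e x '' closedBall 0 3) :
    inv L (g • x) (g • η) = inv L x η := by
  obtain ⟨u, hu, rfl⟩ := h
  rw [← L.e_smul g x u hu, inv_e hu, inv_e hu]

theorem mem_smul_iff (g : Γ) {x : X} {η : B} {S : Set E2} (hS : S ⊆ closedBall 0 3) :
    g • η ∈ L.e (g • x) '' S ↔ η ∈ L.e x '' S := by
  constructor
  · rintro ⟨u, hu, he⟩
    rw [L.e_smul g x u (hS hu)] at he
    exact ⟨u, hu, smul_left_cancel _ he⟩
  · rintro ⟨u, hu, rfl⟩
    exact ⟨u, hu, L.e_smul g x u (hS hu)⟩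

theorem Psi_smul (r : ℝ) (g : Γ) (x : X) (η : B) : Psi L r (g • x) (g • η) = Psi L r x η := by
  unfold Psi
  by_cases h : η ∈ L.e x '' closedBall 0 3
  · rw [if_pos h, if_pos ((mem_smul_iff g le_rfl).2 h), inv_smul g h]
  · rw [if_neg h, if_neg (fun hc => h ((mem_smul_iff g le_rfl).1 hc))]

theorem Psi_rot (r : ℝ) (a : O2) (x : X) (η : B) : Psi L r (L.rot a x) η = Psi L r x η := by
  have hm : ∀ (b : O2) (y : X), η ∈ L.e y '' closedBall 0 3 →
      η ∈ L.e (L.rot b y) '' closedBall 0 3 ∧ inv L (L.rot b y) η = b.symm (inv L y η) := by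
    intro b y hy
    have h1 : b.symm (inv L y η) ∈ closedBall (0 : E2) 3 := by
      have := inv_mem hy
      simpa using this
    have h2 : L.e (L.rot b y) (b.symm (inv L y η)) = η := by
      rw [L.e_rot b y _ h1]
      simp only [LinearIsometryEquiv.apply_symm_apply]
      exact e_inv hy
    refine ⟨⟨_, h1, h2⟩, ?_⟩
    conv_lhs => rw [← h2]
    rw [inv_e h1]
  unfold Psi
  by_cases h : η ∈ L.e x '' closedBall 0 3
  · rw [if_pos h, if_pos (hm a x h).1, (hm a x h).2]
    unfold bump
    simp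
  · rw [if_neg h, if_neg]
    intro hc
    have h3 := (hm a⁻¹ _ hc).1
    rw [← L.rot_mul, mul_inv_cancel, L.rot_one] at h3
    exact h h3

/-! ### The normalised bump -/

/-- the area of the bump -/
def mass (d : Dens0 L) (r : ℝ) (x : X) : ℝ := ∫ u in closedBall (0 : E2) 2, bump r u * st d x u

theorem mass_cont (d : Dens0 L) (r : ℝ) : Continuous (mass d r) := by
  refine continuous_parametric_integral_of_continuous (f := fun x u => bump r u * st d x u) ?_
    (isCompact_closedBall _ _)
  exact ((bump_cont r).comp continuous_snd).mul (st_cont d)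

theorem cst (d : Dens0 L) (x : X) : Continuous (st d x) :=
  (st_cont d).comp (f := fun u => (x, u)) (by fun_prop)

theorem mass_eq (d : Dens0 L) {r : ℝ} (hr : r ≤ 1) (x : X) :
    mass d r x = ∫ u, bump r u * st d x u := by
  unfold mass
  refine setIntegral_eq_integral_of_forall_compl_eq_zero fun u hu => ?_
  have h1 : r ≤ ‖u‖ := by
    have : ¬ ‖u‖ ≤ 2 := fun hc => hu (mem_closedBall_zero_iff.2 hc)
    linarith [not_le.1 this]
  rw [bump_zero h1, zero_mul]

theorem mass_pos (d : Dens0 L) {r : ℝ} (hr0 : 0 < r) (hr : r ≤ 1) (x : X) : 0 < mass d r x := by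
  rw [mass_eq d hr]
  refine Continuous.integral_pos_of_hasCompactSupport_nonneg_nonzero (x := 0)
    ((bump_cont r).mul (cst d x)) ?_ (fun u => mul_nonneg (bump_nonneg _ _) (st_pos d x u).le) ?_
  · refine HasCompactSupport.mul_right ?_
    refine HasCompactSupport.of_support_subset_isCompact (isCompact_closedBall (0 : E2) r) ?_
    intro u hu
    exact mem_of_bump hu
  · refine mul_ne_zero ?_ (st_pos d x 0).ne'
    simp [bump, hr0.ne', max_eq_right hr0.le]

theorem mass_smul (d : Dens0 L) (r : ℝ) (g : Γ) (x : X) : mass d r (g • x) = mass d r x := by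
  unfold mass
  simp only [st_smul]

theorem mass_rot (d : Dens0 L) {r : ℝ} (hr : r ≤ 1) (a : O2) (x : X) :
    mass d r (L.rot a x) = mass d r x := by
  rw [mass_eq d hr, mass_eq d hr]
  have h0 := a.measurePreserving.integral_comp' (f := a.toHomeomorph.toMeasurableEquiv)
    (fun u => bump r u * st d x u)
  rw [← h0]
  refine integral_congr_ae (ae_of_all _ fun u => ?_)
  have h1 : bump r (a u) = bump r u := by simp [bump]
  have h2 : st d (L.rot a x) u = st d x (a u) := by
    have h3 : rt (a u) = a (rt u) := by simp [rt]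
    rw [st, st, s_rot d a x (rt_mem3 u), h3]
  change bump r u * st d (L.rot a x) u = bump r (a u) * st d x (a u)
  rw [h1, h2]

end Vale.Agent.P207.N4.H824
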